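import Vale.Agent.P300.Final

/-! A smooth connected projective complex variety whose universal cover is not holomorphically
convex. -/

namespace Vale.Agent.Results.P300.ShafarevichFalse

open Vale.Agent.P300

theorem result : ∃ (N : ℕ) (S : Set (MvPolynomial (Fin N) ℂ)),
    (∀ f ∈ S, ∃ d, f.IsHomogeneous d) ∧ (∀ v ∈ cone S, IsSubmanifoldAt (cone S) v) ∧
    ConnectedSpace (Pj (cone S)) ∧
    ∃ (E : Type) (_ : TopologicalSpace E) (p : E → Pj (cone S)), IsCoveringMap p ∧
      Function.Surjective p ∧ SimplyConnectedSpace E ∧ ¬ HolConvex p :=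
  counterexample

end Vale.Agent.Results.P300.ShafarevichFalse
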